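import Vale.Agent.P065.R2.H919.SharpStmt2

/-!
# P065, stage B': choice of `r`, `lam`, `u0` for the target level `w`, helper201
-/

set_option autoImplicit false

namespace Vale.Agent.P065.R2.H201.Ch

open Vale.Agent.P065.R2.H919

theorem pow_near {x : ℝ} (hx : 1 ≤ x) : ∃ k : ℕ, 1 ≤ k ∧ x ≤ 2 ^ k ∧ (2 : ℝ) ^ k ≤ 2 * x := by
  obtain ⟨n, h1, h2⟩ := exists_nat_pow_near hx (show (1 : ℝ) < 2 by norm_num)
  refine ⟨n + 1, by omega, h2.le, ?_⟩
  rw [pow_succ]
  linarith only [h1]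

theorem choice : ChoiceStmt := by
  intro C1 hC1
  have hC10 : 0 < C1 := by linarith only [hC1]
  have hl10 : 0 ≤ Real.log (10 * C1) := Real.log_nonneg (by linarith only [hC1])
  have hl16 : 0 ≤ Real.log (16 * C1) := Real.log_nonneg (by linarith only [hC1])
  obtain ⟨a, ha⟩ : ∃ a : ℝ, a = 2 * (Real.log (10 * C1) + 1) := ⟨_, rfl⟩
  obtain ⟨b, hb⟩ : ∃ b : ℝ, b = 2 * (Real.log (16 * C1) + 3) := ⟨_, rfl⟩
  have ha0 : 0 ≤ a := by rw [ha]; linarith only [hl10]
  have hb0 : 0 ≤ b := by rw [hb]; linarith only [hl16]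
  obtain ⟨K, hK⟩ : ∃ K : ℝ, K = a + 2 * b + 4 := ⟨_, rfl⟩
  have hK1 : 1 ≤ K := by rw [hK]; linarith only [ha0, hb0]
  have hK0 : 0 < K := by linarith only [hK1]
  have hK3 : 1 ≤ K ^ 3 := one_le_pow₀ hK1
  have hev := (Real.isLittleO_pow_log_id_atTop (n := 4)).def
    (show (0 : ℝ) < 1 / K ^ 3 by positivity)
  obtain ⟨X, hX⟩ := Filter.eventually_atTop.1 hev
  obtain ⟨N, hN⟩ := exists_nat_ge (max X 3)
  refine ⟨10 * C1 + b + 2, N, by linarith only [hC1, hb0], fun w hw => ?_⟩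
  have hwr : (N : ℝ) ≤ (w : ℝ) := by exact_mod_cast hw
  have hw3 : (3 : ℝ) ≤ w := by
    have := le_max_right X 3
    linarith only [this, hN, hwr]
  have hwX : X ≤ w := by
    have := le_max_left X 3
    linarith only [this, hN, hwr]
  have hwpos : (0 : ℝ) < w := by linarith only [hw3]
  obtain ⟨L, hL⟩ : ∃ L : ℝ, L = Real.log w := ⟨_, rfl⟩
  have hL1 : 1 ≤ L := by
    rw [hL, Real.le_log_iff_exp_le hwpos]
    have := Real.exp_one_lt_d9
    linarith only [this, hw3]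
  have hL0 : 0 < L := by linarith only [hL1]
  have hbig : K ^ 3 * L ^ 4 ≤ w := by
    have h1 := hX w hwX
    rw [← hL, Real.norm_eq_abs, abs_of_nonneg (by positivity), id, Real.norm_eq_abs,
      abs_of_pos hwpos, div_mul_eq_mul_div, one_mul, le_div_iff₀ (by positivity)] at h1
    linarith only [h1]
  have hL4 : L ^ 4 ≤ w := by
    have : 1 * L ^ 4 ≤ K ^ 3 * L ^ 4 := mul_le_mul_of_nonneg_right hK3 (by positivity)
    linarith only [this, hbig]
  have hLw : L ≤ w := by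
    have : L ^ 1 ≤ L ^ 4 := pow_le_pow_right₀ hL1 (by norm_num)
    rw [pow_one] at this
    linarith only [this, hL4]
  obtain ⟨y, hy⟩ : ∃ y : ℝ, y = w / L := ⟨_, rfl⟩
  have hy1 : 1 ≤ y := by
    rw [hy, le_div_iff₀ hL0, one_mul]; exact hLw
  have hyw : y ≤ w := by
    rw [hy]; exact div_le_self hwpos.le hL1
  obtain ⟨r, hr0, hr1, hr2⟩ := pow_near (show 1 ≤ 5 * C1 * y by
    calc (1 : ℝ) = 1 * 1 := (mul_one _).symm
      _ ≤ 5 * C1 * y := mul_le_mul (by linarith only [hC1]) hy1 (by norm_num) (by positivity))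
  obtain ⟨lam, hl0, hl1, hl2⟩ := pow_near (show 1 ≤ C1 * ((w : ℝ) + 1) ^ 3 by
    calc (1 : ℝ) = 1 * 1 := (mul_one _).symm
      _ ≤ C1 * ((w : ℝ) + 1) ^ 3 :=
        mul_le_mul hC1 (one_le_pow₀ (by linarith only [hw3])) (by norm_num) (by positivity))
  have hlog2 := Real.log_two_gt_d9
  have hlog2' := Real.log_two_lt_d9
  have hrR : (0 : ℝ) ≤ r := Nat.cast_nonneg _
  have hlR : (0 : ℝ) ≤ lam := Nat.cast_nonneg _
  -- upper bound of `r`
  have hra : (r : ℝ) ≤ a * L := by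
    have h1 : (2 : ℝ) ^ r ≤ 10 * C1 * w := by
      have : 2 * (5 * C1 * y) ≤ 10 * C1 * w := by
        have := mul_le_mul_of_nonneg_left hyw (show 0 ≤ 10 * C1 by positivity)
        linarith only [this]
      linarith only [hr2, this]
    have h2 := Real.log_le_log (by positivity) h1
    rw [Real.log_pow, Real.log_mul (by positivity) hwpos.ne', ← hL] at h2
    have h3 : (r : ℝ) * (1 / 2) ≤ r * Real.log 2 :=
      mul_le_mul_of_nonneg_left (by linarith only [hlog2]) hrR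
    have h4 : Real.log (10 * C1) * 1 ≤ Real.log (10 * C1) * L :=
      mul_le_mul_of_nonneg_left hL1 hl10
    rw [ha]
    linarith only [h2, h3, h4]
  -- upper bound of `lam`
  have hlb : (lam : ℝ) ≤ b * L := by
    have h1 : (2 : ℝ) ^ lam ≤ 16 * C1 * (w : ℝ) ^ 3 := by
      have h5 : ((w : ℝ) + 1) ^ 3 ≤ (2 * w) ^ 3 :=
        pow_le_pow_left₀ (by positivity) (by linarith only [hw3]) 3
      have h6 : 2 * (C1 * ((w : ℝ) + 1) ^ 3) ≤ 2 * (C1 * (2 * w) ^ 3) := by
        have := mul_le_mul_of_nonneg_left h5 hC10.le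
        linarith only [this]
      have h7 : 2 * (C1 * (2 * (w : ℝ)) ^ 3) = 16 * C1 * (w : ℝ) ^ 3 := by ring
      linarith only [hl2, h6, h7]
    have h2 := Real.log_le_log (by positivity) h1
    rw [Real.log_pow, Real.log_mul (by positivity) (by positivity), Real.log_pow, ← hL] at h2
    have h3 : (lam : ℝ) * (1 / 2) ≤ lam * Real.log 2 :=
      mul_le_mul_of_nonneg_left (by linarith only [hlog2]) hlR
    have h4 : Real.log (16 * C1) * 1 ≤ Real.log (16 * C1) * L :=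
      mul_le_mul_of_nonneg_left hL1 hl16
    push_cast at h2
    rw [hb]
    linarith only [h2, h3, h4]
  -- lower bound of `r`
  have hLr : L ≤ 2 * ((r : ℝ) + 1) := by
    have h1 : y ≤ 2 ^ r := by
      have : 1 * y ≤ 5 * C1 * y :=
        mul_le_mul_of_nonneg_right (by linarith only [hC1]) (by linarith only [hy1])
      linarith only [this, hr1]
    have h2 := Real.log_le_log (by linarith only [hy1]) h1
    rw [Real.log_pow, hy, Real.log_div hwpos.ne' hL0.ne', ← hL] at h2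
    have h3 := Real.log_le_log (by positivity) hL4
    rw [Real.log_pow, ← hL] at h3
    push_cast at h3
    have h4 : (r : ℝ) * Real.log 2 ≤ r * 1 :=
      mul_le_mul_of_nonneg_left (by linarith only [hlog2']) hrR
    linarith only [h2, h3, h4, hrR]
  obtain ⟨u0, hu0⟩ : ∃ u0 : ℕ, u0 = r + 2 * lam + 3 := ⟨_, rfl⟩
  have hu0K : (u0 : ℝ) + 1 ≤ K * L := by
    rw [hu0, hK]
    push_cast
    linarith only [hra, hlb, hL1]
  refine ⟨r, lam, u0, ?_, ?_, ?_, ?_, ?_, hl1, ?_, hl0, ?_, ?_⟩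
  · rw [← hL]; exact hL1
  · have h1 : ((w : ℝ) + 1) / ((r : ℝ) + 1) ≤ 4 * y := by
      rw [div_le_iff₀ (by positivity), hy]
      have h2 : 4 * (w / L) * ((r : ℝ) + 1) = 2 * (w / L) * (2 * ((r : ℝ) + 1)) := by ring
      have h3 : 2 * (w / L) * L ≤ 2 * (w / L) * (2 * ((r : ℝ) + 1)) :=
        mul_le_mul_of_nonneg_left hLr (by positivity)
      have h4 : 2 * (w / L) * L = 2 * w := by field_simp
      linarith only [h2, h3, h4, hw3]
    have h2 : C1 * (((w : ℝ) + 1) / ((r : ℝ) + 1) + 1) ≤ C1 * (5 * y) :=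
      mul_le_mul_of_nonneg_left (by linarith only [h1, hy1]) hC10.le
    linarith only [h2, hr1]
  · rw [← hL, ← hy]
    have h1 : 0 ≤ (b + 2) * y := by positivity
    linarith only [hr2, h1]
  · rw [← hL]
    have h1 : 0 ≤ (10 * C1 + 2) * L := by positivity
    linarith only [hlb, h1]
  · rw [← hL]
    have h1 : 0 ≤ (10 * C1 + b) * ((r : ℝ) + 1) := by positivity
    linarith only [hLr, h1]
  · have h1 : ((u0 : ℝ) + 1) ^ 3 ≤ (K * L) ^ 3 := pow_le_pow_left₀ (by positivity) hu0K 3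
    have h2 : (K * L) ^ 3 ≤ y := by
      rw [hy, le_div_iff₀ hL0]
      have : (K * L) ^ 3 * L = K ^ 3 * L ^ 4 := by ring
      linarith only [this, hbig]
    have h3 : C1 * ((u0 : ℝ) + 1) ^ 3 ≤ C1 * y :=
      mul_le_mul_of_nonneg_left (le_trans h1 h2) hC10.le
    have h4 : 0 ≤ C1 * y := by positivity
    linarith only [h3, h4, hr1]
  · have h1 : K * L ≤ K ^ 3 * L ^ 4 := by
      have a1 : K ^ 1 ≤ K ^ 3 := pow_le_pow_right₀ hK1 (by norm_num)
      have a2 : L ^ 1 ≤ L ^ 4 := pow_le_pow_right₀ hL1 (by norm_num)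
      rw [pow_one] at a1 a2
      exact mul_le_mul a1 a2 hL0.le (by positivity)
    have h2 : (u0 : ℝ) ≤ w := by linarith only [h1, hu0K, hbig]
    exact_mod_cast h2
  · intro u hu
    refine ⟨by omega, ?_⟩
    have h1 : (2 : ℝ) ^ (r + lam + 3) ≤ 2 ^ (u - lam) :=
      pow_le_pow_right₀ (by norm_num) (by omega)
    have h2 : (lam : ℝ) ≤ 2 ^ lam := by
      have : lam ≤ 2 ^ lam := Nat.lt_two_pow_self.le
      exact_mod_cast this
    refine le_trans ?_ h1
    rw [pow_add, pow_add]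
    have h3 : (lam : ℝ) * 2 ^ r ≤ 2 ^ lam * 2 ^ r :=
      mul_le_mul_of_nonneg_right h2 (by positivity)
    have h4 : (0 : ℝ) < 2 ^ lam * 2 ^ r := by positivity
    have h5 : (2 : ℝ) ^ r * 2 ^ lam * 2 ^ 3 = 8 * (2 ^ lam * 2 ^ r) := by ring
    linarith only [h3, h4, h5]

end Vale.Agent.P065.R2.H201.Ch
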