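import Vale.Agent.P065.R2.H919.SharpStmt2

/-!
# P065, stage B': the end (choice of the target level from `t`), helper201
-/

set_option autoImplicit false

namespace Vale.Agent.P065.R2.H201

open Vale.Agent.P065.R2.H919

theorem rpow_two_thirds_cube {x : ℝ} (hx : 0 ≤ x) : (x ^ (2 / 3 : ℝ)) ^ 3 = x ^ 2 := by
  rw [← Real.rpow_natCast (x ^ (2 / 3 : ℝ)) 3, ← Real.rpow_mul hx]
  rw [show (2 / 3 : ℝ) * ((3 : ℕ) : ℝ) = ((2 : ℕ) : ℝ) by norm_num, Real.rpow_natCast]

theorem log_ge_one {w : ℕ} (hw : 3 ≤ w) : 1 ≤ Real.log w := by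
  have h0 : (0 : ℝ) < w := by exact_mod_cast (by omega : 0 < w)
  rw [Real.le_log_iff_exp_le h0]
  have h1 := Real.exp_one_lt_d9
  have h2 : (3 : ℝ) ≤ w := by exact_mod_cast hw
  linarith

theorem endSharp : EndSharpStmt := by
  intro P ⟨C0, x0, w0, hC0, hx0, hP⟩
  obtain ⟨F, hF⟩ : ∃ F : ℕ → ℝ, ∀ w : ℕ, F w = C0 * ((w : ℝ) ^ 3 / (Real.log w) ^ 2) * 2 ^ w :=
    ⟨fun w : ℕ => C0 * ((w : ℝ) ^ 3 / (Real.log w) ^ 2) * 2 ^ w, fun _ => rfl⟩
  have hC00 : 0 < C0 := by linarith only [hC0]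
  -- lower bound of the size
  have hFbig : ∀ w : ℕ, 3 ≤ w → (2 : ℝ) ^ w ≤ F w := by
    intro w hw
    have h1 := log_ge_one hw
    have hw0 : (0 : ℝ) < w := by exact_mod_cast (by omega : 0 < w)
    have hw1 : (1 : ℝ) ≤ w := by exact_mod_cast (by omega : 1 ≤ w)
    have h2 : Real.log w ≤ w := by
      have := Real.log_le_sub_one_of_pos hw0
      linarith only [this]
    have h3 : 1 ≤ (w : ℝ) ^ 3 / (Real.log w) ^ 2 := by
      rw [le_div_iff₀ (by positivity), one_mul]
      calc (Real.log w) ^ 2 ≤ (w : ℝ) ^ 2 := pow_le_pow_left₀ (by linarith only [h1]) h2 2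
        _ ≤ (w : ℝ) ^ 3 := pow_le_pow_right₀ hw1 (by norm_num)
    rw [hF]
    apply le_mul_of_one_le_left (by positivity)
    calc (1 : ℝ) = 1 * 1 := (mul_one _).symm
      _ ≤ _ := mul_le_mul hC0 h3 (by norm_num) hC00.le
  obtain ⟨w1, hw1⟩ : ∃ w1 : ℕ, w1 = max w0 3 := ⟨_, rfl⟩
  have hw10 : w0 ≤ w1 := by rw [hw1]; exact le_max_left _ _
  have hw13 : 3 ≤ w1 := by rw [hw1]; exact le_max_right _ _
  obtain ⟨C3, hC3⟩ : ∃ C3 : ℝ, C3 = Real.log (64 * C0) + 4 := ⟨_, rfl⟩
  have hlog64 : 0 ≤ Real.log (64 * C0) := Real.log_nonneg (by linarith only [hC0])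
  have hC31 : 1 ≤ C3 := by rw [hC3]; linarith only [hlog64]
  obtain ⟨K2, hK2⟩ : ∃ K2 : ℝ, K2 = Real.log C3 + 1 := ⟨_, rfl⟩
  have hlogC3 : 0 ≤ Real.log C3 := Real.log_nonneg hC31
  have hK20 : 0 < K2 := by rw [hK2]; linarith only [hlogC3]
  refine ⟨64 * C0 / x0 * 8 * K2 ^ 2, by positivity,
    max (3 * F w1 + 1) (Real.exp (Real.exp 1)), fun t ht => ?_⟩
  have ht0 : 3 * F w1 + 1 ≤ t := le_trans (le_max_left _ _) ht
  have ht1 : Real.exp (Real.exp 1) ≤ t := le_trans (le_max_right _ _) ht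
  have htpos : 0 < t := lt_of_lt_of_le (Real.exp_pos _) ht1
  have hlt : Real.exp 1 ≤ Real.log t := by
    rw [Real.le_log_iff_exp_le htpos]; exact ht1
  have hltpos : 0 < Real.log t := lt_of_lt_of_le (Real.exp_pos _) hlt
  have hllt : 1 ≤ Real.log (Real.log t) := by
    rw [Real.le_log_iff_exp_le hltpos]; exact hlt
  classical
  have hex : ∃ k, ¬ 3 * F (w1 + (k + 1)) + 1 ≤ t := by
    obtain ⟨M, hM⟩ := exists_nat_ge t
    refine ⟨M, ?_⟩
    have h1 := hFbig (w1 + (M + 1)) (by omega)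
    have h2 : ((M + 1 : ℕ) : ℝ) ≤ 2 ^ (w1 + (M + 1)) := by
      have h3 : M + 1 ≤ 2 ^ (w1 + (M + 1)) :=
        le_trans (by omega : M + 1 ≤ w1 + (M + 1)) Nat.lt_two_pow_self.le
      exact_mod_cast h3
    push_cast at h2
    have h4 : (0 : ℝ) < 2 ^ (w1 + (M + 1)) := by positivity
    intro h
    linarith only [h1, h2, h, hM, h4]
  obtain ⟨w, hww1, hw2, hw3⟩ : ∃ w, w1 ≤ w ∧ 3 * F w + 1 ≤ t ∧ t < 3 * F (w + 1) + 1 := by
    refine ⟨w1 + Nat.find hex, by omega, ?_, ?_⟩
    · rcases Nat.eq_zero_or_pos (Nat.find hex) with h | h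
      · rw [h]; exact ht0
      · have h1 := Nat.find_min hex (m := Nat.find hex - 1) (by omega)
        rw [not_not, Nat.sub_add_cancel h] at h1
        exact h1
    · have h1 := Nat.find_spec hex
      rw [← Nat.add_assoc] at h1
      exact not_le.1 h1
  have hwn3 : 3 ≤ w := le_trans hw13 hww1
  have hlw := log_ge_one hwn3
  have hwpos : (0 : ℝ) < w := by exact_mod_cast (by omega : 0 < w)
  have hwge1 : (1 : ℝ) ≤ w := by exact_mod_cast (by omega : 1 ≤ w)
  have hE0 : (0 : ℝ) < 2 ^ w := by positivity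
  have hFw0 : 0 ≤ F w := le_trans hE0.le (hFbig w hwn3)
  obtain ⟨q, z, d, hPw⟩ := hP w (le_trans hw10 hww1)
  rw [← hF w] at hPw
  refine ⟨F w, F w, F w, q, z, d, x0 * 2 ^ w, hPw, hFw0, hFw0, hFw0, by positivity, ?_, ?_⟩
  · linarith only [hw2]
  -- the upper bound of `t`
  · have h1 : t ≤ 64 * C0 * ((w : ℝ) ^ 3 / (Real.log w) ^ 2) * 2 ^ w := by
      have a1 : 1 ≤ F (w + 1) := le_trans (one_le_pow₀ (by norm_num)) (hFbig (w + 1) (by omega))
      have a2 : F (w + 1) ≤ 16 * F w := by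
        rw [hF, hF, pow_succ (2 : ℝ)]
        push_cast
        have b1 : ((w : ℝ) + 1) ^ 3 ≤ 8 * (w : ℝ) ^ 3 := by
          calc ((w : ℝ) + 1) ^ 3 ≤ (2 * (w : ℝ)) ^ 3 :=
                pow_le_pow_left₀ (by positivity) (by linarith only [hwge1]) 3
            _ = _ := by ring
        have b2 : (Real.log w) ^ 2 ≤ (Real.log ((w : ℝ) + 1)) ^ 2 :=
          pow_le_pow_left₀ (by linarith only [hlw])
            (Real.log_le_log hwpos (by linarith only [])) 2
        have b3 : ((w : ℝ) + 1) ^ 3 / (Real.log ((w : ℝ) + 1)) ^ 2 ≤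
            8 * (w : ℝ) ^ 3 / (Real.log w) ^ 2 :=
          div_le_div₀ (by positivity) b1 (by positivity) b2
        calc C0 * (((w : ℝ) + 1) ^ 3 / (Real.log ((w : ℝ) + 1)) ^ 2) * (2 ^ w * 2)
            ≤ C0 * (8 * (w : ℝ) ^ 3 / (Real.log w) ^ 2) * (2 ^ w * 2) := by
              apply mul_le_mul_of_nonneg_right _ (by positivity)
              exact mul_le_mul_of_nonneg_left b3 hC00.le
          _ = _ := by ring
      have a3 : 64 * C0 * ((w : ℝ) ^ 3 / (Real.log w) ^ 2) * 2 ^ w = 64 * F w := by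
        rw [hF]; ring
      rw [a3]
      linarith only [hw3, a1, a2]
    have hwt : (w : ℝ) ≤ 2 * Real.log t := by
      have a1 : (2 : ℝ) ^ w ≤ t := by
        have := hFbig w hwn3
        linarith only [this, hw2, hFw0]
      have a2 := Real.log_le_log hE0 a1
      rw [Real.log_pow] at a2
      have a3 := Real.log_two_gt_d9
      have a4 : (w : ℝ) * (1 / 2) ≤ w * Real.log 2 :=
        mul_le_mul_of_nonneg_left (by linarith only [a3]) hwpos.le
      linarith only [a2, a4]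
    have hw3t : (w : ℝ) ^ 3 ≤ 8 * (Real.log t) ^ 3 := by
      calc (w : ℝ) ^ 3 ≤ (2 * Real.log t) ^ 3 := pow_le_pow_left₀ hwpos.le hwt 3
        _ = _ := by ring
    -- `log log t ≤ K2 log w`
    have hll : Real.log (Real.log t) ≤ K2 * Real.log w := by
      have a1 : t ≤ 64 * C0 * (w : ℝ) ^ 3 * 2 ^ w := by
        refine le_trans h1 ?_
        apply mul_le_mul_of_nonneg_right _ hE0.le
        apply mul_le_mul_of_nonneg_left _ (by positivity)
        exact div_le_self (by positivity) (one_le_pow₀ hlw)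
      have a2 : Real.log t ≤ C3 * w := by
        have b1 := Real.log_le_log htpos a1
        rw [Real.log_mul (by positivity) (by positivity),
          Real.log_mul (by positivity) (by positivity), Real.log_pow, Real.log_pow] at b1
        have b2 : Real.log w ≤ w := by
          have := Real.log_le_sub_one_of_pos hwpos
          linarith only [this]
        have b3 : (w : ℝ) * Real.log 2 ≤ w * 1 :=
          mul_le_mul_of_nonneg_left (by have := Real.log_two_lt_d9; linarith only [this]) hwpos.le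
        have b4 : Real.log (64 * C0) * 1 ≤ Real.log (64 * C0) * w :=
          mul_le_mul_of_nonneg_left hwge1 hlog64
        have b5 : C3 * (w : ℝ) = Real.log (64 * C0) * w + 4 * w := by rw [hC3]; ring
        push_cast at b1
        linarith only [b1, b2, b3, b4, b5]
      have a3 := Real.log_le_log hltpos a2
      rw [Real.log_mul (by linarith only [hC31]) hwpos.ne'] at a3
      have a4 : Real.log C3 * 1 ≤ Real.log C3 * Real.log w :=
        mul_le_mul_of_nonneg_left hlw hlogC3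
      have a5 : K2 * Real.log w = Real.log C3 * Real.log w + Real.log w := by rw [hK2]; ring
      linarith only [a3, a4, a5]
    have hll2 : (Real.log (Real.log t)) ^ 2 ≤ K2 ^ 2 * (Real.log w) ^ 2 := by
      calc (Real.log (Real.log t)) ^ 2 ≤ (K2 * Real.log w) ^ 2 :=
            pow_le_pow_left₀ (by linarith only [hllt]) hll 2
        _ = _ := by ring
    have hfrac : (w : ℝ) ^ 3 / (Real.log w) ^ 2 ≤
        8 * K2 ^ 2 * ((Real.log t) ^ 3 / (Real.log (Real.log t)) ^ 2) := by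
      have c1 : 0 < (Real.log (Real.log t)) ^ 2 := by positivity
      have c2 : 0 < (Real.log w) ^ 2 := by positivity
      rw [mul_div_assoc', div_le_div_iff₀ c2 c1]
      calc (w : ℝ) ^ 3 * (Real.log (Real.log t)) ^ 2
          ≤ 8 * (Real.log t) ^ 3 * (K2 ^ 2 * (Real.log w) ^ 2) :=
            mul_le_mul hw3t hll2 c1.le (by positivity)
        _ = _ := by ring
    rw [div_pow, rpow_two_thirds_cube (by linarith only [hllt])]
    calc t ≤ 64 * C0 * ((w : ℝ) ^ 3 / (Real.log w) ^ 2) * 2 ^ w := h1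
      _ ≤ 64 * C0 * (8 * K2 ^ 2 * ((Real.log t) ^ 3 / (Real.log (Real.log t)) ^ 2)) * 2 ^ w := by
          apply mul_le_mul_of_nonneg_right _ hE0.le
          exact mul_le_mul_of_nonneg_left hfrac (by positivity)
      _ = 64 * C0 / x0 * 8 * K2 ^ 2 * (x0 * 2 ^ w) *
          ((Real.log t) ^ 3 / (Real.log (Real.log t)) ^ 2) := by
          field_simp

end Vale.Agent.P065.R2.H201
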