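import Vale.Agent.P065.R2.H919.RecStmt

/-!
# P065, stage B: the recursion over chains of cores of decreasing size (helper201)

For version 2 of `RecStmt`.
-/

set_option autoImplicit false

namespace Vale.Agent.P065.R2.H201

open Finset Vale.Agent.P065.R2.H919

/-- size exponent of core number `i` -/
def vi (u r i : ℕ) : ℕ := u - r - 1 - i / 2 ^ r

/-- the property of level `u` -/
def St (P : ℝ → ℝ → ℝ → ℝ → ℝ → ℝ → ℝ → Prop) (c1 c2 c3 c4 D : ℝ) (u : ℕ) : Prop :=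
  P (c3 * D * ((u : ℝ) + 1) ^ 3 * 2 ^ u) (c2 * D * ((u : ℝ) + 1) ^ 2 * 2 ^ u)
    (c3 * D * ((u : ℝ) + 1) ^ 3 * 2 ^ u) (c1 * D * 2 ^ u) (c4 * D * ((u : ℝ) + 1) * 2 ^ u)
    (D * 2 ^ u)
    ((1 + 1 / ((u : ℝ) + 1)) * 2 ^ u)

/-- the shape of the chain that builds level `u` -/
structure Lev (CR c1 c2 : ℝ) (u r lam : ℕ) : Prop where
  r1 : CR * ((u : ℝ) + 1) ≤ 2 ^ r
  r2 : (2 : ℝ) ^ r ≤ 2 * CR * ((u : ℝ) + 1)
  l1 : ((u : ℝ) + 1) ^ 3 ≤ 2 ^ lam
  l2 : lam ≤ 3 * r + 1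
  l3 : 1 ≤ lam
  rr : 2 ≤ r
  big : 6 * ((lam * 2 ^ r : ℕ) : ℝ) * 2 ^ lam ≤ 2 ^ u
  qc : c1 ≤ 2 ^ r
  half : 2 * (r + lam) ≤ u + 1
  c2s : c2 ≤ 4 * ((u : ℝ) + 1)

theorem blockSum (u r : ℕ) : ∀ k : ℕ, r + k ≤ u →
    ∑ j ∈ range (k * 2 ^ r), (2 : ℝ) ^ (vi u r j) = 2 ^ u - 2 ^ (u - k) := by
  intro k
  induction k with
  | zero => intro _; simp
  | succ k ih =>
    intro h
    rw [Nat.succ_mul, Finset.sum_range_add, ih (by omega)]
    have h1 : ∀ j ∈ range (2 ^ r), (2 : ℝ) ^ (vi u r (k * 2 ^ r + j)) = 2 ^ (u - r - 1 - k) := by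
      intro j hj
      have hj' := Finset.mem_range.1 hj
      have h2 : (k * 2 ^ r + j) / 2 ^ r = k := by
        rw [Nat.add_comm, Nat.add_mul_div_right _ _ (by positivity), Nat.div_eq_of_lt hj',
          Nat.zero_add]
      simp only [vi, h2]
    rw [Finset.sum_congr rfl h1, Finset.sum_const, Finset.card_range, nsmul_eq_mul]
    push_cast
    have e1 : (2 : ℝ) ^ r * 2 ^ (u - r - 1 - k) = 2 ^ (u - (k + 1)) := by
      rw [← pow_add]; congr 1; omega
    have e2 : (2 : ℝ) ^ (u - k) = 2 * 2 ^ (u - (k + 1)) := by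
      rw [← pow_succ']; congr 1; omega
    rw [e1, e2]; ring

theorem div_lt' {r lam i : ℕ} (hi : i < lam * 2 ^ r) : i / 2 ^ r < lam :=
  (Nat.div_lt_iff_lt_mul (by positivity)).2 hi

/-- partial sums -/
theorem partSum {u r lam i : ℕ} (hu : r + lam ≤ u) (hi : i < lam * 2 ^ r) :
    ∑ j ∈ range (i + 1), (2 : ℝ) ^ (vi u r j) + 2 ^ r * 2 ^ (vi u r i) ≤ 2 ^ u := by
  have hl := div_lt' hi
  obtain ⟨l, hldef⟩ : ∃ l, l = i / 2 ^ r := ⟨_, rfl⟩
  rw [← hldef] at hl
  have h1 := blockSum u r (l + 1) (by omega)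
  have h2 : range (i + 1) ⊆ range ((l + 1) * 2 ^ r) := by
    apply Finset.range_subset_range.2
    have h3 := Nat.lt_mul_div_succ i (show 0 < 2 ^ r by positivity)
    rw [← hldef, Nat.mul_comm] at h3
    omega
  have h4 : ∑ j ∈ range (i + 1), (2 : ℝ) ^ (vi u r j) ≤
      ∑ j ∈ range ((l + 1) * 2 ^ r), (2 : ℝ) ^ (vi u r j) :=
    Finset.sum_le_sum_of_subset_of_nonneg h2 (fun _ _ _ => by positivity)
  have h5 : (2 : ℝ) ^ r * 2 ^ (vi u r i) = 2 ^ (u - (l + 1)) := by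
    rw [← pow_add]
    congr 1
    simp only [vi, ← hldef]
    omega
  rw [h5]
  linarith only [h1, h4]

theorem prev_le {u r lam i : ℕ} (hu : r + lam ≤ u) (hi : i < lam * 2 ^ r) :
    (2 : ℝ) ^ (vi u r (i - 1)) ≤ 2 * 2 ^ (vi u r i) := by
  rw [← pow_succ']
  apply pow_le_pow_right₀ (by norm_num)
  have hl := div_lt' hi
  have h1 : i / 2 ^ r ≤ (i - 1) / 2 ^ r + 1 := by
    have hp : 0 < 2 ^ r := by positivity
    rw [← Nat.add_div_right _ hp]
    apply Nat.div_le_div_right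
    omega
  simp only [vi]
  generalize i / 2 ^ r = l at *
  generalize (i - 1) / 2 ^ r = l' at *
  omega

/-- real form of the exponent -/
theorem vi_cast {u r lam i : ℕ} (hu : r + lam ≤ u) (hi : i < lam * 2 ^ r) :
    1 ≤ ((vi u r i : ℕ) : ℝ) + 1 ∧ ((vi u r i : ℕ) : ℝ) + 1 ≤ (u : ℝ) - r := by
  have hl := div_lt' hi
  constructor
  · have : (0 : ℝ) ≤ ((vi u r i : ℕ) : ℝ) := Nat.cast_nonneg _
    linarith
  · have h1 : vi u r i + 1 + r ≤ u := by
      simp only [vi]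
      generalize i / 2 ^ r = l at *
      omega
    have h2 : ((vi u r i + 1 + r : ℕ) : ℝ) ≤ u := by exact_mod_cast h1
    push_cast at h2
    linarith

/-- lower bound of the exponents -/
theorem vi_half {u r lam i : ℕ} (hu : 2 * (r + lam) ≤ u + 1) (hi : i < lam * 2 ^ r) :
    ((u : ℝ) + 1) / 2 ≤ ((vi u r i : ℕ) : ℝ) + 1 := by
  have hl := div_lt' hi
  have h1 : u + 1 ≤ 2 * (vi u r i + 1) := by
    simp only [vi]
    generalize i / 2 ^ r = l at *
    omega
  have h2 : ((u + 1 : ℕ) : ℝ) ≤ ((2 * (vi u r i + 1) : ℕ) : ℝ) := by exact_mod_cast h1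
  push_cast at h2
  linarith

/-- **the step of the recursion** -/
theorem step {P : ℝ → ℝ → ℝ → ℝ → ℝ → ℝ → ℝ → Prop} {b c CR c1 c2 c3 c4 D : ℝ} (hb : 1 ≤ b)
    (hbc : b ≤ c) (hCR : CR = 48 * c ^ 2) (hc2 : c2 = 72 * c * CR) (hc3 : c3 = 3 * c * c2)
    (hc1 : c1 = c * (c2 + c3 + 3)) (hc4 : c4 = 3 * c) (hD : 1 ≤ D) (hch : ChainStmt P b c)
    (hmono : MonoStmt P) {u r lam : ℕ} (hL : Lev CR c1 c2 u r lam)
    (ih : ∀ v < u, St P c1 c2 c3 c4 D v) : St P c1 c2 c3 c4 D u := by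
  have hc : 1 ≤ c := le_trans hb hbc
  obtain ⟨r1, r2, l1, l2, l3, rr, big, qc, half, c2s⟩ := hL
  have hc0 : (0 : ℝ) < c := by linarith only [hc]
  have hcc : 1 ≤ c ^ 2 := one_le_pow₀ hc
  have hCR1 : 12 ≤ CR := by rw [hCR]; linarith only [hcc]
  have hCR0 : 0 < CR := by linarith only [hCR1]
  have hCR4 : c4 ≤ CR := by
    have h1 : c * 1 ≤ c * c := mul_le_mul_of_nonneg_left hc hc0.le
    rw [hc4, hCR]
    have h2 : 48 * c ^ 2 = 48 * (c * c) := by ring
    linarith only [h1, h2, hc0]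
  have hc40 : 0 < c4 := by rw [hc4]; positivity
  have hc20 : 0 < c2 := by rw [hc2]; positivity
  have hc30 : 0 < c3 := by rw [hc3]; positivity
  have hc10 : 0 < c1 := by rw [hc1]; positivity
  have hD0 : (0 : ℝ) < D := by linarith only [hD]
  have hlam1 : (1 : ℝ) ≤ (lam : ℝ) := by exact_mod_cast l3
  -- sizes
  have hru : r + lam ≤ u := by
    have h1 : (2 : ℝ) ^ (r + lam) ≤ 2 ^ u := by
      refine le_trans ?_ big
      rw [pow_add]
      push_cast
      have h2 : (0 : ℝ) < 2 ^ r * 2 ^ lam := by positivity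
      nlinarith only [h2, hlam1]
    exact (pow_le_pow_iff_right₀ (by norm_num)).1 h1
  obtain ⟨m, hm⟩ : ∃ m : ℕ, m = lam * 2 ^ r := ⟨_, rfl⟩
  rw [← hm] at big
  have hm1 : 1 ≤ m := by
    rw [hm]
    have : 0 < lam * 2 ^ r := by positivity
    omega
  have hmr : (1 : ℝ) ≤ (m : ℝ) := by exact_mod_cast hm1
  -- w = u - r
  obtain ⟨w, hw⟩ : ∃ w : ℝ, w = (u : ℝ) - r := ⟨_, rfl⟩
  have hw1 : 1 ≤ w := by
    have h1 : ((r + 1 : ℕ) : ℝ) ≤ u := by exact_mod_cast (by omega : r + 1 ≤ u)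
    push_cast at h1
    linarith only [h1, hw]
  obtain ⟨s, hs⟩ : ∃ s : ℝ, s = (u : ℝ) + 1 := ⟨_, rfl⟩
  obtain ⟨ρ, hρ⟩ : ∃ ρ : ℝ, ρ = (r : ℝ) + 1 := ⟨_, rfl⟩
  have hsw : s = w + ρ := by rw [hs, hw, hρ]; ring
  have hρ3 : 3 ≤ ρ := by
    have : (2 : ℝ) ≤ (r : ℝ) := by exact_mod_cast rr
    linarith only [this, hρ]
  have hs1 : 1 ≤ s := by linarith only [hsw, hw1, hρ3]
  obtain ⟨R, hR⟩ : ∃ R : ℝ, R = 2 ^ r := ⟨_, rfl⟩
  obtain ⟨Λ, hΛ⟩ : ∃ Λ : ℝ, Λ = 2 ^ lam := ⟨_, rfl⟩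
  obtain ⟨E, hE⟩ : ∃ E : ℝ, E = 2 ^ u := ⟨_, rfl⟩
  obtain ⟨ε, hε⟩ : ∃ ε : ℝ, ε = 2 ^ (u - lam) := ⟨_, rfl⟩
  rw [← hs, ← hR] at r1
  rw [← hs, ← hR] at r2
  rw [← hs, ← hΛ] at l1
  rw [← hs] at c2s
  rw [← hΛ, ← hE] at big
  rw [← hR] at qc
  have hR0 : 0 < R := by rw [hR]; positivity
  have hΛ0 : 0 < Λ := by rw [hΛ]; positivity
  have hE0 : 0 < E := by rw [hE]; positivity
  have hE1 : 1 ≤ E := by rw [hE]; exact one_le_pow₀ (by norm_num)
  have hε0 : 0 < ε := by rw [hε]; positivity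
  have hεΛ : ε * Λ = E := by
    rw [hε, hΛ, hE, ← pow_add]; congr 1; omega
  have hmε : 6 * (m : ℝ) ≤ ε := by
    by_contra hcon
    rw [not_le] at hcon
    have h1 := mul_lt_mul_of_pos_right hcon hΛ0
    rw [hεΛ] at h1
    linarith only [h1, big]
  have hmle : (m : ℝ) ≤ 6 * CR * ρ * s := by
    have h1 : (lam : ℝ) ≤ 3 * ρ := by
      have : ((lam : ℕ) : ℝ) ≤ ((3 * r + 1 : ℕ) : ℝ) := by exact_mod_cast l2
      push_cast at this
      linarith only [this, hρ]
    have h2 : (m : ℝ) = lam * R := by rw [hm, hR]; push_cast; ring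
    rw [h2]
    calc (lam : ℝ) * R ≤ 3 * ρ * (2 * CR * s) :=
          mul_le_mul h1 r2 hR0.le (by linarith only [hρ3])
      _ = _ := by ring
  have hcm : 12 * c * (m : ℝ) ≤ c2 * ρ * s := by
    calc 12 * c * (m : ℝ) ≤ 12 * c * (6 * CR * ρ * s) :=
          mul_le_mul_of_nonneg_left hmle (by positivity)
      _ = c2 * ρ * s := by rw [hc2]; ring
  have hs0 : 0 < s := by linarith only [hs1]
  have hw0 : 0 < w := by linarith only [hw1]
  have hρ0 : 0 < ρ := by linarith only [hρ3]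
  have hws : w ≤ s := by linarith only [hsw, hρ0]
  -- the sequences
  obtain ⟨y, hy⟩ : ∃ y : ℕ → ℝ, ∀ i, y i = 2 ^ (vi u r i) := ⟨_, fun _ => rfl⟩
  obtain ⟨z, hz⟩ : ∃ z : ℕ → ℝ, ∀ i, z i = ((vi u r i : ℕ) : ℝ) + 1 := ⟨_, fun _ => rfl⟩
  have hy0 : ∀ i, 0 < y i := fun i => by rw [hy]; positivity
  have hz1 : ∀ i, 1 ≤ z i := fun i => by
    rw [hz]
    have : (0 : ℝ) ≤ ((vi u r i : ℕ) : ℝ) := Nat.cast_nonneg _
    linarith only [this]
  have hz0 : ∀ i, 0 < z i := fun i => by linarith only [hz1 i]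
  have hzw : ∀ i < m, z i ≤ w := fun i hi => by
    rw [hz, hw]
    exact (vi_cast hru (by rw [← hm]; exact hi)).2
  have hzs : ∀ i < m, s / 2 ≤ z i := fun i hi => by
    rw [hz, hs]
    exact vi_half half (by rw [← hm]; exact hi)
  have hpart : ∀ i < m, ∑ j ∈ range (i + 1), y j + R * y i ≤ E := fun i hi => by
    simp only [hy, hR, hE]
    exact partSum hru (by rw [← hm]; exact hi)
  have hfull : ∑ j ∈ range m, y j = E - ε := by
    simp only [hy, hE, hε, hm]
    exact blockSum u r lam hru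
  have hprev : ∀ i < m, y (i - 1) ≤ 2 * y i := fun i hi => by
    rw [hy, hy]
    exact prev_le hru (by rw [← hm]; exact hi)
  have hvlt : ∀ i < m, vi u r i + r + 1 ≤ u := fun i hi => by
    have hl := div_lt' (show i < lam * 2 ^ r by rw [← hm]; exact hi)
    simp only [vi]
    generalize i / 2 ^ r = l at *
    omega
  have hyE : ∀ i < m, 2 * R * y i ≤ E := fun i hi => by
    rw [hy, hR, hE, ← pow_succ', ← pow_add]
    exact pow_le_pow_right₀ (by norm_num) (by have := hvlt i hi; omega)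
  have hlast : y (m - 1) * (R * Λ) = E := by
    have h1 : (m - 1) / 2 ^ r = lam - 1 := by
      obtain ⟨k, rfl⟩ : ∃ k, lam = k + 1 := ⟨lam - 1, by omega⟩
      have hp : 0 < 2 ^ r := by positivity
      have h2 : m - 1 = (2 ^ r - 1) + k * 2 ^ r := by
        rw [hm, Nat.succ_mul]; omega
      rw [h2, Nat.add_mul_div_right _ _ hp, Nat.div_eq_of_lt (by omega)]
      omega
    rw [hy, hR, hΛ, hE, ← pow_add, ← pow_add]
    congr 1
    simp only [vi, h1]
    omega
  have hP : ∀ i < m, P (c3 * D * z i ^ 3 * y i) (c2 * D * z i ^ 2 * y i) (c3 * D * z i ^ 3 * y i)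
      (c1 * D * y i) (c4 * D * z i * y i) (D * y i) ((1 + 1 / z i) * y i) := fun i hi => by
    have h1 := ih (vi u r i) (by have := hvlt i hi; omega)
    rw [hz, hy]
    exact h1
  -- the bounds of the parameters
  obtain ⟨U, hU⟩ : ∃ U : ℝ, U = D * E := ⟨_, rfl⟩
  have hU0 : 0 < U := by rw [hU]; positivity
  have hU1 : 1 ≤ U := by
    rw [hU]
    calc (1 : ℝ) = 1 * 1 := (mul_one _).symm
      _ ≤ D * E := mul_le_mul hD hE1 (by norm_num) hD0.le
  obtain ⟨pb, hpb⟩ : ∃ pb : ℝ, pb = U / (2 * R) := ⟨_, rfl⟩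
  obtain ⟨qb, hqb⟩ : ∃ qb : ℝ, qb = c1 * pb := ⟨_, rfl⟩
  obtain ⟨zb, hzb⟩ : ∃ zb : ℝ, zb = c4 * s * pb := ⟨_, rfl⟩
  have hRs : CR * s ≤ R := r1
  have hR1 : 1 ≤ R := by
    have h1 : 12 * 1 ≤ CR * s := mul_le_mul hCR1 hs1 (by norm_num) hCR0.le
    linarith only [h1, hRs]
  have hpb0 : 0 ≤ pb := by rw [hpb]; positivity
  have hqb0 : 0 ≤ qb := by rw [hqb]; positivity
  have hzb0 : 0 ≤ zb := by rw [hzb]; positivity
  have hzbU : zb ≤ U / 2 := by
    rw [hzb, hpb]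
    have h1 : c4 * s ≤ R := le_trans (mul_le_mul_of_nonneg_right hCR4 hs0.le) hRs
    calc c4 * s * (U / (2 * R)) ≤ R * (U / (2 * R)) :=
          mul_le_mul_of_nonneg_right h1 (by positivity)
      _ = U / 2 := by field_simp
  have hqbU : qb ≤ U / 2 := by
    rw [hqb, hpb]
    calc c1 * (U / (2 * R)) ≤ R * (U / (2 * R)) :=
          mul_le_mul_of_nonneg_right qc (by positivity)
      _ = U / 2 := by field_simp
  obtain ⟨K, hK⟩ : ∃ K : ℝ, K = qb + zb + U + 1 := ⟨_, rfl⟩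
  have hK3 : K ≤ 3 * U := by rw [hK]; linarith only [hzbU, hqbU, hU1]
  have hKU : U ≤ K := by rw [hK]; linarith only [hzb0, hqb0]
  have hK1 : 1 ≤ K := le_trans hU1 hKU
  have hK0 : 0 < K := by linarith only [hK1]
  obtain ⟨κ, hκ⟩ : ∃ κ : ℝ, κ = c * K := ⟨_, rfl⟩
  have hκ1 : κ ≤ 3 * c * U := by
    rw [hκ]
    calc c * K ≤ c * (3 * U) := mul_le_mul_of_nonneg_left hK3 hc0.le
      _ = _ := by ring
  have hκ0 : c ≤ κ := by
    rw [hκ]
    calc c = c * 1 := (mul_one _).symm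
      _ ≤ _ := mul_le_mul_of_nonneg_left hK1 hc0.le
  have hκpos : 0 < κ := by linarith only [hκ0, hc0]
  have sumA : ∀ k ≤ m, ∑ j ∈ range k, c2 * D * z j ^ 2 * y j ≤
      c2 * D * w ^ 2 * ∑ j ∈ range k, y j := fun k hk => by
    rw [Finset.mul_sum]
    apply Finset.sum_le_sum
    intro j hj
    have hj' : j < m := lt_of_lt_of_le (Finset.mem_range.1 hj) hk
    have h1 : z j ^ 2 ≤ w ^ 2 := pow_le_pow_left₀ (hz0 j).le (hzw j hj') 2
    exact mul_le_mul_of_nonneg_right (mul_le_mul_of_nonneg_left h1 (by positivity)) (hy0 j).le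
  have sumG : ∑ j ∈ range m, c3 * D * z j ^ 3 * y j ≤ c3 * D * w ^ 3 * ∑ j ∈ range m, y j := by
    rw [Finset.mul_sum]
    apply Finset.sum_le_sum
    intro j hj
    have hj' : j < m := Finset.mem_range.1 hj
    have h1 : z j ^ 3 ≤ w ^ 3 := pow_le_pow_left₀ (hz0 j).le (hzw j hj') 3
    exact mul_le_mul_of_nonneg_right (mul_le_mul_of_nonneg_left h1 (by positivity)) (hy0 j).le
  have eachAG : ∀ i < m, c2 * D * z i ^ 2 * y i + c3 * D * z i ^ 3 * y i ≤
      D * (c2 * w ^ 2 + c3 * w ^ 3) * y i := fun i hi => by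
    have h1 : z i ^ 2 ≤ w ^ 2 := pow_le_pow_left₀ (hz0 i).le (hzw i hi) 2
    have h2 : z i ^ 3 ≤ w ^ 3 := pow_le_pow_left₀ (hz0 i).le (hzw i hi) 3
    have h3 : c2 * z i ^ 2 ≤ c2 * w ^ 2 := mul_le_mul_of_nonneg_left h1 hc20.le
    have h4 : c3 * z i ^ 3 ≤ c3 * w ^ 3 := mul_le_mul_of_nonneg_left h2 hc30.le
    calc c2 * D * z i ^ 2 * y i + c3 * D * z i ^ 3 * y i
        = D * (c2 * z i ^ 2 + c3 * z i ^ 3) * y i := by ring
      _ ≤ _ := mul_le_mul_of_nonneg_right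
          (mul_le_mul_of_nonneg_left (by linarith only [h3, h4]) hD0.le) (hy0 i).le
  have sumZ : ∑ j ∈ range m, c4 * D * z j * y j ≤ c4 * D * w * ∑ j ∈ range m, y j := by
    rw [Finset.mul_sum]
    apply Finset.sum_le_sum
    intro j hj
    have hj' : j < m := Finset.mem_range.1 hj
    exact mul_le_mul_of_nonneg_right
      (mul_le_mul_of_nonneg_left (hzw j hj') (by positivity)) (hy0 j).le
  have hcoef : 3 * c * (c2 * w ^ 2 + c3 * w ^ 3) ≤ c2 * s ^ 2 * R / 4 := by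
    have h1 : 12 * c + 36 * c ^ 2 * s ≤ R := by
      have h3 : c * 1 ≤ c * (c * s) := by
        apply mul_le_mul_of_nonneg_left _ hc0.le
        calc (1 : ℝ) = 1 * 1 := (mul_one _).symm
          _ ≤ c * s := mul_le_mul hc hs1 (by norm_num) hc0.le
      have h4 : CR * s = 48 * (c * (c * s)) := by rw [hCR]; ring
      have h5 : 36 * c ^ 2 * s = 36 * (c * (c * s)) := by ring
      linarith only [hRs, h3, h4, h5]
    have h6 : c2 * w ^ 2 + c3 * w ^ 3 ≤ c2 * s ^ 2 + c3 * s ^ 3 := by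
      have a1 := mul_le_mul_of_nonneg_left (pow_le_pow_left₀ hw0.le hws 2) hc20.le
      have a2 := mul_le_mul_of_nonneg_left (pow_le_pow_left₀ hw0.le hws 3) hc30.le
      linarith only [a1, a2]
    have h7 : 3 * c * (c2 * w ^ 2 + c3 * w ^ 3) ≤ 3 * c * (c2 * s ^ 2 + c3 * s ^ 3) :=
      mul_le_mul_of_nonneg_left h6 (by positivity)
    refine le_trans h7 ?_
    calc 3 * c * (c2 * s ^ 2 + c3 * s ^ 3) = c2 * s ^ 2 * (12 * c + 36 * c ^ 2 * s) / 4 := by
          rw [hc3]; ring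
      _ ≤ _ := by
          apply div_le_div_of_nonneg_right _ (by norm_num)
          exact mul_le_mul_of_nonneg_left h1 (by positivity)
  have hεU : c2 * D * s ^ 2 / 4 * ε ≤ U := by
    have h1 : s ^ 3 * ε ≤ E := by
      calc s ^ 3 * ε ≤ Λ * ε := mul_le_mul_of_nonneg_right l1 hε0.le
        _ = E := by rw [mul_comm]; exact hεΛ
    calc c2 * D * s ^ 2 / 4 * ε ≤ 4 * s * D * s ^ 2 / 4 * ε := by
          apply mul_le_mul_of_nonneg_right _ hε0.le
          apply div_le_div_of_nonneg_right _ (by norm_num)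
          apply mul_le_mul_of_nonneg_right _ (by positivity)
          exact mul_le_mul_of_nonneg_right c2s hD0.le
      _ = D * (s ^ 3 * ε) := by ring
      _ ≤ D * E := mul_le_mul_of_nonneg_left h1 hD0.le
      _ = U := hU.symm
  obtain ⟨T, hT⟩ : ∃ T : ℝ, T = ∑ j ∈ range m, (c2 * D * z j ^ 2 * y j + b * K) := ⟨_, rfl⟩
  obtain ⟨M, hM⟩ : ∃ M : ℝ, M = T + (c + 1) * K := ⟨_, rfl⟩
  have hb0 : 0 < b := by linarith only [hb]
  have key := hch m (fun i => c3 * D * z i ^ 3 * y i) (fun i => c2 * D * z i ^ 2 * y i)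
    (fun i => c3 * D * z i ^ 3 * y i) (fun i => c1 * D * y i) (fun i => c4 * D * z i * y i)
    (fun i => D * y i) (fun i => (1 + 1 / z i) * y i) U qb zb M hm1 hP
    (fun i _ => by
      have h1 := hy0 i
      have h2 := hz0 i
      refine ⟨?_, ?_, ?_, ?_, ?_, ?_⟩ <;> positivity)
    (fun i hi => by
      have h1 : D * y i ≤ pb := by
        rw [hpb, le_div_iff₀ (by positivity), hU]
        calc D * y i * (2 * R) = D * (2 * R * y i) := by ring
          _ ≤ D * E := mul_le_mul_of_nonneg_left (hyE i hi) hD0.le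
      constructor
      · show c1 * D * y i ≤ qb
        rw [hqb, mul_assoc]
        exact mul_le_mul_of_nonneg_left h1 hc10.le
      · show c4 * D * z i * y i ≤ zb
        rw [hzb]
        calc c4 * D * z i * y i = c4 * z i * (D * y i) := by ring
          _ ≤ c4 * s * pb := by
            apply mul_le_mul _ h1 (mul_nonneg hD0.le (hy0 i).le) (by positivity)
            exact mul_le_mul_of_nonneg_left (le_trans (hzw i hi) hws) hc40.le)
    (by
      show ∑ i ∈ range m, (D * y i + 6) ≤ U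
      rw [Finset.sum_add_distrib, ← Finset.mul_sum, hfull, Finset.sum_const, Finset.card_range,
        nsmul_eq_mul, hU]
      have h1 : 1 * ε ≤ D * ε := mul_le_mul_of_nonneg_right hD hε0.le
      have h2 : D * (E - ε) = D * E - D * ε := by ring
      linarith only [h1, h2, hmε])
    (by
      intro i hi
      show (∑ j ∈ range (i + 1), (c2 * D * z j ^ 2 * y j + b * (qb + zb + U + 1))) +
        c * (c2 * D * z i ^ 2 * y i + c3 * D * z i ^ 3 * y i + c2 * D * z (i - 1) ^ 2 * y (i - 1) +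
          c3 * D * z (i - 1) ^ 3 * y (i - 1) + qb + zb + U + 1) ≤ M
      rw [← hK]
      have hi' : i - 1 < m := by omega
      have a2 := hpart i hi
      have a4 := eachAG i hi
      have a5 := eachAG (i - 1) hi'
      have a6 : D * (c2 * w ^ 2 + c3 * w ^ 3) * y (i - 1) ≤
          D * (c2 * w ^ 2 + c3 * w ^ 3) * (2 * y i) :=
        mul_le_mul_of_nonneg_left (hprev i hi) (by positivity)
      have a7 : c * (c2 * D * z i ^ 2 * y i + c3 * D * z i ^ 3 * y i +
          c2 * D * z (i - 1) ^ 2 * y (i - 1) + c3 * D * z (i - 1) ^ 3 * y (i - 1)) ≤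
          c * (D * (c2 * w ^ 2 + c3 * w ^ 3) * (3 * y i)) :=
        mul_le_mul_of_nonneg_left (by linarith only [a4, a5, a6]) hc0.le
      have a8 : D * y i * (3 * c * (c2 * w ^ 2 + c3 * w ^ 3)) ≤
          D * y i * (c2 * s ^ 2 * R / 4) :=
        mul_le_mul_of_nonneg_left hcoef (mul_nonneg hD0.le (hy0 i).le)
      have b1 : c * (c2 * D * z i ^ 2 * y i + c3 * D * z i ^ 3 * y i +
          c2 * D * z (i - 1) ^ 2 * y (i - 1) + c3 * D * z (i - 1) ^ 3 * y (i - 1) + qb + zb + U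
          + 1) = c * (c2 * D * z i ^ 2 * y i + c3 * D * z i ^ 3 * y i +
          c2 * D * z (i - 1) ^ 2 * y (i - 1) + c3 * D * z (i - 1) ^ 3 * y (i - 1)) + c * K := by
        rw [hK]; ring
      have b2 : c * (D * (c2 * w ^ 2 + c3 * w ^ 3) * (3 * y i)) =
        D * y i * (3 * c * (c2 * w ^ 2 + c3 * w ^ 3)) := by ring
      -- the tail
      have hsplit : ∀ f : ℕ → ℝ, ∑ j ∈ range m, f j =
          ∑ j ∈ range (i + 1), f j + ∑ j ∈ Finset.Ico (i + 1) m, f j := fun f =>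
        (Finset.sum_range_add_sum_Ico f (by omega : i + 1 ≤ m)).symm
      have t1 : R * y i - ε ≤ ∑ j ∈ Finset.Ico (i + 1) m, y j := by
        have h1 := hsplit y
        rw [hfull] at h1
        linarith only [h1, a2]
      have t2 : c2 * D * s ^ 2 / 4 * ∑ j ∈ Finset.Ico (i + 1) m, y j ≤
          ∑ j ∈ Finset.Ico (i + 1) m, (c2 * D * z j ^ 2 * y j + b * K) := by
        rw [Finset.mul_sum]
        apply Finset.sum_le_sum
        intro j hj
        have hj' : j < m := (Finset.mem_Ico.1 hj).2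
        have h1 : (s / 2) ^ 2 ≤ z j ^ 2 := pow_le_pow_left₀ (by positivity) (hzs j hj') 2
        have h2 : c2 * D * (s / 2) ^ 2 * y j ≤ c2 * D * z j ^ 2 * y j :=
          mul_le_mul_of_nonneg_right (mul_le_mul_of_nonneg_left h1 (by positivity)) (hy0 j).le
        have h3 : c2 * D * (s / 2) ^ 2 * y j = c2 * D * s ^ 2 / 4 * y j := by ring
        have h4 : 0 ≤ b * K := by positivity
        linarith only [h2, h3, h4]
      have t3 : c2 * D * s ^ 2 / 4 * (R * y i - ε) ≤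
          c2 * D * s ^ 2 / 4 * ∑ j ∈ Finset.Ico (i + 1) m, y j :=
        mul_le_mul_of_nonneg_left t1 (by positivity)
      have t4 := hsplit (fun j => c2 * D * z j ^ 2 * y j + b * K)
      rw [← hT] at t4
      have t5 : c2 * D * s ^ 2 / 4 * (R * y i - ε) =
        D * y i * (c2 * s ^ 2 * R / 4) - c2 * D * s ^ 2 / 4 * ε := by ring
      have t6 : (c + 1) * K = c * K + K := by ring
      rw [b1, hM]
      linarith only [a7, a8, b2, t2, t3, t4, t5, t6, hεU, hKU])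
  -- common estimates
  obtain ⟨Q, hQ⟩ : ∃ Q : ℝ, Q = c2 * ρ * s ^ 2 := ⟨_, rfl⟩
  have hQ0 : 0 < Q := by rw [hQ]; positivity
  have hss : s * 1 ≤ s ^ 2 := by
    rw [pow_two]; exact mul_le_mul_of_nonneg_left hs1 hs0.le
  have hww : w ^ 2 ≤ s ^ 2 := pow_le_pow_left₀ hw0.le hws 2
  have q1 : c2 * s ^ 2 ≤ Q := by
    rw [hQ, mul_right_comm]
    calc c2 * s ^ 2 = c2 * s ^ 2 * 1 := (mul_one _).symm
      _ ≤ c2 * s ^ 2 * ρ := mul_le_mul_of_nonneg_left (by linarith only [hρ3]) (by positivity)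
  have q2 : c2 * w ^ 2 ≤ Q := le_trans (mul_le_mul_of_nonneg_left hww hc20.le) q1
  have q3 : 12 * c * (m : ℝ) ≤ Q := by
    refine le_trans hcm ?_
    rw [hQ]
    exact mul_le_mul_of_nonneg_left (by linarith only [hss]) (by positivity)
  have q4 : Q ≤ c * Q := le_mul_of_one_le_left hQ0.le hc
  have q5 : c * (c2 * w ^ 2) ≤ c * Q := mul_le_mul_of_nonneg_left q2 hc0.le
  have q6 : c3 * w ^ 3 + 3 * (c * Q) ≤ c3 * s ^ 3 := by
    have h1 : c3 * s ^ 3 - c3 * w ^ 3 = c3 * ρ * (s ^ 2 + s * w + w ^ 2) := by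
      have : ρ = s - w := by linarith only [hsw]
      rw [this]; ring
    have h2 : 3 * (c * Q) = c3 * ρ * s ^ 2 := by rw [hQ, hc3]; ring
    have h3 : c3 * ρ * s ^ 2 ≤ c3 * ρ * (s ^ 2 + s * w + w ^ 2) := by
      apply mul_le_mul_of_nonneg_left _ (by positivity)
      have h4 : 0 < s * w := mul_pos hs0 hw0
      have h5 : 0 < w ^ 2 := by positivity
      linarith only [h4, h5]
    linarith only [h1, h2, h3]
  have hmκ : (m : ℝ) * κ ≤ 3 * c * m * U := by
    calc (m : ℝ) * κ ≤ m * (3 * c * U) := mul_le_mul_of_nonneg_left hκ1 (by positivity)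
      _ = _ := by ring
  have hEε : E - ε ≤ E := by linarith only [hε0]
  have sG : ∑ j ∈ range m, c3 * D * z j ^ 3 * y j ≤ c3 * w ^ 3 * U := by
    refine le_trans sumG ?_
    rw [hfull, hU]
    calc c3 * D * w ^ 3 * (E - ε) ≤ c3 * D * w ^ 3 * E :=
          mul_le_mul_of_nonneg_left hEε (by positivity)
      _ = _ := by ring
  have sA : ∑ j ∈ range m, c2 * D * z j ^ 2 * y j ≤ c2 * w ^ 2 * U := by
    refine le_trans (sumA m le_rfl) ?_
    rw [hfull, hU]
    calc c2 * D * w ^ 2 * (E - ε) ≤ c2 * D * w ^ 2 * E :=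
          mul_le_mul_of_nonneg_left hEε (by positivity)
      _ = _ := by ring
  have hTU : T ≤ c2 * w ^ 2 * U + m * κ := by
    rw [hT, Finset.sum_add_distrib, Finset.sum_const, Finset.card_range, nsmul_eq_mul]
    have h1 : b * K ≤ κ := by
      rw [hκ]
      exact mul_le_mul_of_nonneg_right hbc hK0.le
    have h2 : (m : ℝ) * (b * K) ≤ m * κ := mul_le_mul_of_nonneg_left h1 (by positivity)
    linarith only [h2, sA]
  have hMU : M + c * m ≤ c2 * s ^ 2 * U := by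
    have h1 : (m : ℝ) * c ≤ m * κ := mul_le_mul_of_nonneg_left hκ0 (by positivity)
    have h2 : 1 * κ ≤ m * κ := mul_le_mul_of_nonneg_right hmr hκpos.le
    have h3 : (c + 1) * K ≤ 2 * κ := by
      have a1 : 1 * K ≤ c * K := mul_le_mul_of_nonneg_right hc hK0.le
      have a2 : (c + 1) * K = c * K + 1 * K := by ring
      rw [a2, hκ]
      linarith only [a1]
    have h4 : c2 * w ^ 2 + c2 * ρ * s ≤ c2 * s ^ 2 := by
      have h5 : c2 * s ^ 2 - c2 * w ^ 2 = c2 * ρ * (s + w) := by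
        have : ρ = s - w := by linarith only [hsw]
        rw [this]; ring
      have h6 : c2 * ρ * s ≤ c2 * ρ * (s + w) :=
        mul_le_mul_of_nonneg_left (by linarith only [hw0]) (by positivity)
      linarith only [h5, h6]
    have h7 : (c2 * w ^ 2 + 12 * c * m) * U ≤ c2 * s ^ 2 * U :=
      mul_le_mul_of_nonneg_right (by linarith only [h4, hcm]) hU0.le
    have h8 : (c2 * w ^ 2 + 12 * c * m) * U = c2 * w ^ 2 * U + 4 * (3 * c * m * U) := by ring
    linarith only [h1, h2, h3, h7, h8, hmκ, hTU, hM]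
  unfold St
  rw [← hs, ← hE]
  refine hmono key ?_ ?_ ?_ ?_ ?_ ?_ ?_
  · show ∑ i ∈ range m, (c3 * D * z i ^ 3 * y i + c2 * D * z i ^ 2 * y i + c * (U + 1)) ≤
      c3 * D * s ^ 3 * E
    rw [Finset.sum_add_distrib, Finset.sum_add_distrib, Finset.sum_const, Finset.card_range,
      nsmul_eq_mul]
    have h1 : c * (U + 1) ≤ κ := by
      rw [hκ, hK]
      exact mul_le_mul_of_nonneg_left (by linarith only [hqb0, hzb0]) hc0.le
    have h2 : (m : ℝ) * (c * (U + 1)) ≤ m * κ := mul_le_mul_of_nonneg_left h1 (by positivity)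
    have h3 : (c3 * w ^ 3 + c2 * w ^ 2 + 3 * c * m) * U ≤ c3 * s ^ 3 * U := by
      apply mul_le_mul_of_nonneg_right _ hU0.le
      linarith only [q2, q3, q4, q6, hQ0]
    have h4 : c3 * D * s ^ 3 * E = c3 * s ^ 3 * U := by rw [hU]; ring
    have h5 : (c3 * w ^ 3 + c2 * w ^ 2 + 3 * c * m) * U =
      c3 * w ^ 3 * U + c2 * w ^ 2 * U + 3 * c * m * U := by ring
    linarith only [h2, h3, h4, h5, sG, sA, hmκ]
  · have h1 : c2 * D * s ^ 2 * E = c2 * s ^ 2 * U := by rw [hU]; ring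
    rw [h1]
    exact hMU
  · show M + c * m + ∑ i ∈ range m, (c3 * D * z i ^ 3 * y i +
        c * (c2 * D * z i ^ 2 * y i + qb + zb + U + 1)) ≤ c3 * D * s ^ 3 * E
    have h0 : ∀ i ∈ range m, (c3 * D * z i ^ 3 * y i +
        c * (c2 * D * z i ^ 2 * y i + qb + zb + U + 1)) =
        c3 * D * z i ^ 3 * y i + c * (c2 * D * z i ^ 2 * y i) + κ := by
      intro i _
      rw [hκ, hK]; ring
    rw [Finset.sum_congr rfl h0, Finset.sum_add_distrib, Finset.sum_add_distrib, Finset.sum_const,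
      Finset.card_range, nsmul_eq_mul, ← Finset.mul_sum]
    have h1 : c * ∑ i ∈ range m, c2 * D * z i ^ 2 * y i ≤ c * (c2 * w ^ 2 * U) :=
      mul_le_mul_of_nonneg_left sA hc0.le
    have h3 : (c2 * s ^ 2 + c3 * w ^ 3 + c * (c2 * w ^ 2) + 3 * c * m) * U ≤ c3 * s ^ 3 * U := by
      apply mul_le_mul_of_nonneg_right _ hU0.le
      have h9 : 3 * (3 * c * (m : ℝ)) ≤ Q := by
        have h10 : 0 < c * (m : ℝ) := by positivity
        linarith only [h10, q3]
      linarith only [q1, q5, q4, q6, hQ0, h9]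
    have h4 : c3 * D * s ^ 3 * E = c3 * s ^ 3 * U := by rw [hU]; ring
    have h5 : (c2 * s ^ 2 + c3 * w ^ 3 + c * (c2 * w ^ 2) + 3 * c * m) * U =
      c2 * s ^ 2 * U + c3 * w ^ 3 * U + c * (c2 * w ^ 2 * U) + 3 * c * m * U := by ring
    linarith only [h1, h3, h4, h5, sG, hMU, hmκ]
  · show c * (c2 * D * z (m - 1) ^ 2 * y (m - 1) + c3 * D * z (m - 1) ^ 3 * y (m - 1) + qb + zb + U
      + 1) ≤ c1 * D * E
    have h1 := eachAG (m - 1) (by omega)
    have h2 : w ^ 3 ≤ R * Λ := by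
      have a1 : 1 * s ≤ CR * s :=
        mul_le_mul_of_nonneg_right (by linarith only [hCR1]) hs0.le
      calc w ^ 3 ≤ s ^ 3 := pow_le_pow_left₀ hw0.le hws 3
        _ = 1 * s ^ 3 := by ring
        _ ≤ R * Λ := mul_le_mul hR1 l1 (by positivity) hR0.le
    have h3 : w ^ 3 * y (m - 1) ≤ E := by
      calc w ^ 3 * y (m - 1) ≤ R * Λ * y (m - 1) := mul_le_mul_of_nonneg_right h2 (hy0 _).le
        _ = E := by rw [mul_comm]; exact hlast
    have h4 : w ^ 2 ≤ w ^ 3 := pow_le_pow_right₀ hw1 (by norm_num)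
    have h5 : D * (c2 * w ^ 2 + c3 * w ^ 3) * y (m - 1) ≤ (c2 + c3) * U := by
      calc D * (c2 * w ^ 2 + c3 * w ^ 3) * y (m - 1)
          ≤ D * (c2 * w ^ 3 + c3 * w ^ 3) * y (m - 1) := by
            apply mul_le_mul_of_nonneg_right _ (hy0 _).le
            apply mul_le_mul_of_nonneg_left _ hD0.le
            have := mul_le_mul_of_nonneg_left h4 hc20.le
            linarith only [this]
        _ = (c2 + c3) * D * (w ^ 3 * y (m - 1)) := by ring
        _ ≤ (c2 + c3) * D * E := mul_le_mul_of_nonneg_left h3 (by positivity)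
        _ = _ := by rw [hU]; ring
    have h6 : c * (c2 * D * z (m - 1) ^ 2 * y (m - 1) + c3 * D * z (m - 1) ^ 3 * y (m - 1)) ≤
        c * ((c2 + c3) * U) := mul_le_mul_of_nonneg_left (by linarith only [h1, h5]) hc0.le
    have h7 : c * (c2 * D * z (m - 1) ^ 2 * y (m - 1) + c3 * D * z (m - 1) ^ 3 * y (m - 1) + qb +
        zb + U + 1) = c * (c2 * D * z (m - 1) ^ 2 * y (m - 1) +
        c3 * D * z (m - 1) ^ 3 * y (m - 1)) + κ := by rw [hκ, hK]; ring
    have h8 : c1 * D * E = c * ((c2 + c3) * U) + 3 * c * U := by rw [hc1, hU]; ring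
    rw [h7, h8]
    linarith only [h6, hκ1]
  · show M - ∑ j ∈ range m, (c2 * D * z j ^ 2 * y j + b * (qb + zb + U + 1)) +
      ∑ i ∈ range m, (c4 * D * z i * y i + 2) + c * m ≤ c4 * D * s * E
    rw [← hK, ← hT, Finset.sum_add_distrib, Finset.sum_const, Finset.card_range, nsmul_eq_mul]
    have h1 : ∑ i ∈ range m, c4 * D * z i * y i ≤ c4 * w * U := by
      refine le_trans sumZ ?_
      rw [hfull, hU]
      calc c4 * D * w * (E - ε) ≤ c4 * D * w * E :=
            mul_le_mul_of_nonneg_left hEε (by positivity)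
        _ = _ := by ring
    have h2 : ε ≤ U := by
      have a1 : ε * 1 ≤ ε * Λ := by
        apply mul_le_mul_of_nonneg_left _ hε0.le
        rw [hΛ]; exact one_le_pow₀ (by norm_num)
      have a2 : 1 * E ≤ D * E := mul_le_mul_of_nonneg_right hD hE0.le
      rw [hU]
      linarith only [a1, a2, hεΛ]
    have h3 : (2 + c) * (m : ℝ) ≤ c * U := by
      have a1 : (2 + c) * (m : ℝ) ≤ 3 * c * m :=
        mul_le_mul_of_nonneg_right (by linarith only [hc]) (by positivity)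
      have a2 : c * (6 * (m : ℝ)) ≤ c * U :=
        mul_le_mul_of_nonneg_left (le_trans hmε h2) hc0.le
      have a3 : 0 < c * (m : ℝ) := by positivity
      linarith only [a1, a2, a3]
    have h4 : (c + 1) * K ≤ 6 * c * U := by
      calc (c + 1) * K ≤ (2 * c) * (3 * U) :=
            mul_le_mul (by linarith only [hc]) hK3 hK0.le (by positivity)
        _ = _ := by ring
    have h5 : c4 * D * s * E = c4 * w * U + c4 * ρ * U := by rw [hU, hsw]; ring
    have h6 : 9 * c * U ≤ c4 * ρ * U := by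
      apply mul_le_mul_of_nonneg_right _ hU0.le
      rw [hc4]
      calc 9 * c = 3 * c * 3 := by ring
        _ ≤ 3 * c * ρ := mul_le_mul_of_nonneg_left hρ3 (by positivity)
    have h7 : 0 < c * U := by positivity
    have h8 : (2 + c) * (m : ℝ) = m * 2 + c * m := by ring
    rw [h5, hM]
    linarith only [h1, h3, h4, h6, h7, h8]
  · exact hU.le
  · show (1 + 1 / s) * E ≤ ∑ i ∈ range m, ((1 + 1 / z i) * y i - 1) - 1
    rw [Finset.sum_sub_distrib, Finset.sum_const, Finset.card_range, nsmul_eq_mul]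
    have h1 : (1 + 1 / w) * (E - ε) ≤ ∑ i ∈ range m, (1 + 1 / z i) * y i := by
      rw [← hfull, Finset.mul_sum]
      apply Finset.sum_le_sum
      intro i hi
      apply mul_le_mul_of_nonneg_right _ (hy0 i).le
      have := one_div_le_one_div_of_le (hz0 i) (hzw i (Finset.mem_range.1 hi))
      linarith only [this]
    have h2 : ε ≤ E / s ^ 2 := by
      rw [le_div_iff₀ (by positivity)]
      have h20 : s ^ 2 ≤ s ^ 3 := pow_le_pow_right₀ hs1 (by norm_num)
      calc ε * s ^ 2 ≤ ε * Λ := mul_le_mul_of_nonneg_left (le_trans h20 l1) hε0.le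
        _ = E := hεΛ
    have h3 : 3 * (E / s ^ 2) ≤ (1 / w - 1 / s) * E := by
      have a1 : 1 / w - 1 / s = ρ / (w * s) := by
        have : ρ = s - w := by linarith only [hsw]
        rw [this]; field_simp
      have a2 : 3 / s ^ 2 ≤ ρ / (w * s) := by
        apply div_le_div₀ hρ0.le hρ3 (by positivity)
        rw [pow_two]
        exact mul_le_mul_of_nonneg_right hws hs0.le
      rw [a1]
      calc 3 * (E / s ^ 2) = 3 / s ^ 2 * E := by ring
        _ ≤ _ := mul_le_mul_of_nonneg_right a2 hE0.le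
    have h4 : 1 / w * ε ≤ 1 * ε := by
      apply mul_le_mul_of_nonneg_right _ hε0.le
      rw [div_le_one hw0]
      exact hw1
    have h5 : (1 + 1 / w) * (E - ε) = E + 1 / w * E - ε - 1 / w * ε := by ring
    have h6 : (1 + 1 / s) * E = E + 1 / s * E := by ring
    have h7 : (1 / w - 1 / s) * E = 1 / w * E - 1 / s * E := by ring
    linarith only [h1, h2, h3, h4, h5, h6, h7, hmε, hmr]

theorem pow_near {x : ℝ} (hx : 1 ≤ x) : ∃ k : ℕ, 1 ≤ k ∧ x ≤ 2 ^ k ∧ (2 : ℝ) ^ k ≤ 2 * x := by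
  obtain ⟨n, h1, h2⟩ := exists_nat_pow_near hx (show (1 : ℝ) < 2 by norm_num)
  refine ⟨n + 1, by omega, h2.le, ?_⟩
  rw [pow_succ]
  linarith only [h1]

/-- large levels can be built -/
theorem exists_lev {CR : ℝ} (c1 c2 : ℝ) (hCR : 12 ≤ CR) :
    ∃ u1 : ℕ, ∀ u, u1 ≤ u → ∃ r lam, Lev CR c1 c2 u r lam := by
  have hCR0 : 0 < CR := by linarith only [hCR]
  have ht := tendsto_pow_const_div_const_pow_of_one_lt 8 (show (1 : ℝ) < 2 by norm_num)
  have hev := ht.eventually_lt_const (show (0 : ℝ) < 1 / (32 * CR ^ 2) by positivity)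
  obtain ⟨N, hN⟩ := Filter.eventually_atTop.1 hev
  obtain ⟨N2, hN2⟩ := exists_nat_ge (max c1 c2)
  refine ⟨max N N2, fun u hu => ?_⟩
  have hu1 : N ≤ u := le_trans (le_max_left _ _) hu
  have hu2 : N2 ≤ u := le_trans (le_max_right _ _) hu
  obtain ⟨s, hs⟩ : ∃ s : ℝ, s = (u : ℝ) + 1 := ⟨_, rfl⟩
  have hs1 : 1 ≤ s := by
    have : (0 : ℝ) ≤ (u : ℝ) := Nat.cast_nonneg _
    linarith only [this, hs]
  have hs0 : 0 < s := by linarith only [hs1]
  have hbig : 16 * CR ^ 2 * s ^ 8 ≤ 2 ^ u := by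
    have h1 := hN (u + 1) (by omega)
    push_cast at h1
    rw [← hs, div_lt_div_iff₀ (by positivity) (by positivity), pow_succ (2 : ℝ)] at h1
    linarith only [h1]
  have hN3 : (N2 : ℝ) ≤ (u : ℝ) := by exact_mod_cast hu2
  have hc1s : c1 ≤ s := by
    have := le_max_left c1 c2
    linarith only [this, hs, hN2, hN3]
  have hc2s : c2 ≤ s := by
    have := le_max_right c1 c2
    linarith only [this, hs, hN2, hN3]
  have hCs : 12 * 1 ≤ CR * s := mul_le_mul hCR hs1 (by norm_num) hCR0.le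
  have hsC : 1 * s ≤ CR * s := mul_le_mul_of_nonneg_right (by linarith only [hCR]) hs0.le
  obtain ⟨r, hr0, hr1, hr2⟩ := pow_near (show 1 ≤ CR * s by linarith only [hCs])
  obtain ⟨lam, hl0, hl1, hl2⟩ := pow_near (show 1 ≤ s ^ 3 from one_le_pow₀ hs1)
  refine ⟨r, lam, ?_, ?_, ?_, ?_, hl0, ?_, ?_, ?_, ?_, ?_⟩
  · rw [← hs]; exact hr1
  · rw [← hs]; linarith only [hr2]
  · rw [← hs]; exact hl1
  · have h1 : s ^ 3 ≤ (2 ^ r) ^ 3 := pow_le_pow_left₀ hs0.le (by linarith only [hsC, hr1]) 3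
    have h2 : (2 : ℝ) ^ lam ≤ 2 ^ (3 * r + 1) := by
      calc (2 : ℝ) ^ lam ≤ 2 * s ^ 3 := hl2
        _ ≤ 2 * (2 ^ r) ^ 3 := by linarith only [h1]
        _ = 2 ^ (3 * r + 1) := by rw [← pow_mul, pow_succ, mul_comm r 3]; ring
    exact (pow_le_pow_iff_right₀ (by norm_num)).1 h2
  · by_contra hcon
    have h1 : r ≤ 1 := by omega
    have h2 : (2 : ℝ) ^ r ≤ 2 ^ 1 := pow_le_pow_right₀ (by norm_num) h1
    linarith only [h2, hr1, hCs]
  · have h1 : (lam : ℝ) ≤ 2 ^ lam := by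
      have : lam ≤ 2 ^ lam := Nat.lt_two_pow_self.le
      exact_mod_cast this
    have h2 : (lam : ℝ) ≤ 2 * s ^ 3 := by linarith only [h1, hl2]
    refine le_trans ?_ hbig
    push_cast
    calc 6 * ((lam : ℝ) * 2 ^ r) * 2 ^ lam
        ≤ 6 * (2 * s ^ 3 * (2 * (CR * s))) * (2 * s ^ 3) := by
          apply mul_le_mul _ hl2 (by positivity) (by positivity)
          apply mul_le_mul_of_nonneg_left _ (by norm_num)
          exact mul_le_mul h2 hr2 (by positivity) (by positivity)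
      _ = 48 * (CR * s ^ 7) := by ring
      _ ≤ 48 * (CR * s ^ 7) * (CR * s / 12) := by
          apply le_mul_of_one_le_right (by positivity)
          linarith only [hCs]
      _ = 4 * CR ^ 2 * s ^ 8 := by ring
      _ ≤ 16 * CR ^ 2 * s ^ 8 := by
          have : 0 < CR ^ 2 * s ^ 8 := by positivity
          linarith only [this]
  · linarith only [hc1s, hsC, hr1]
  · have h1 : (2 : ℝ) ^ (2 * (r + lam)) ≤ 2 ^ u := by
      calc (2 : ℝ) ^ (2 * (r + lam)) = (2 ^ r * 2 ^ lam) ^ 2 := by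
            rw [← pow_add, ← pow_mul, mul_comm]
        _ ≤ (2 * (CR * s) * (2 * s ^ 3)) ^ 2 := by
            apply pow_le_pow_left₀ (by positivity)
            exact mul_le_mul hr2 hl2 (by positivity) (by positivity)
        _ = 16 * CR ^ 2 * s ^ 8 := by ring
        _ ≤ _ := hbig
    have h2 : 2 * (r + lam) ≤ u := (pow_le_pow_iff_right₀ (by norm_num)).1 h1
    omega
  · rw [← hs]; linarith only [hc2s, hs0]

/-- all levels -/
theorem all_levels {P : ℝ → ℝ → ℝ → ℝ → ℝ → ℝ → ℝ → Prop} {b c : ℝ} (hb : 1 ≤ b) (hbc : b ≤ c)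
    (hch : ChainStmt P b c) (hmono : MonoStmt P) (hbase : BaseStmtU P) :
    ∃ c1 c2 c3 c4 D : ℝ, 1 ≤ c2 ∧ c2 ≤ c3 ∧ 1 ≤ D ∧ ∀ u : ℕ, St P c1 c2 c3 c4 D u := by
  have hc : 1 ≤ c := le_trans hb hbc
  have hc0 : (0 : ℝ) < c := by linarith only [hc]
  have hcc : 1 ≤ c ^ 2 := one_le_pow₀ hc
  obtain ⟨CR, hCR⟩ : ∃ CR : ℝ, CR = 48 * c ^ 2 := ⟨_, rfl⟩
  obtain ⟨c2, hc2⟩ : ∃ c2 : ℝ, c2 = 72 * c * CR := ⟨_, rfl⟩
  obtain ⟨c3, hc3⟩ : ∃ c3 : ℝ, c3 = 3 * c * c2 := ⟨_, rfl⟩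
  obtain ⟨c1, hc1⟩ : ∃ c1 : ℝ, c1 = c * (c2 + c3 + 3) := ⟨_, rfl⟩
  obtain ⟨c4, hc4⟩ : ∃ c4 : ℝ, c4 = 3 * c := ⟨_, rfl⟩
  have hCR12 : 12 ≤ CR := by rw [hCR]; linarith only [hcc]
  have h21 : 1 ≤ c2 := by
    rw [hc2]
    calc (1 : ℝ) ≤ 72 * 1 * 12 := by norm_num
      _ ≤ 72 * c * CR := mul_le_mul (by linarith only [hc]) hCR12 (by norm_num) (by positivity)
  have h32 : c2 ≤ c3 := by
    rw [hc3]
    exact le_mul_of_one_le_left (by linarith only [h21]) (by linarith only [hc])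
  have h11 : 1 ≤ c1 := by
    rw [hc1]
    calc (1 : ℝ) = 1 * 1 := (mul_one _).symm
      _ ≤ c * (c2 + c3 + 3) := mul_le_mul hc (by linarith only [h21, h32]) (by norm_num) hc0.le
  obtain ⟨u1, hu1⟩ := exists_lev c1 c2 hCR12
  obtain ⟨n0, a0, g0, q0, p0, d0, x0, hn, ha, hg, hq, hp, hd, hx, hP⟩ := hbase (2 ^ (u1 + 1))
  obtain ⟨D, hD⟩ : ∃ D : ℝ, D = 1 + n0 + a0 + g0 + q0 + p0 + d0 := ⟨_, rfl⟩
  have hD1 : 1 ≤ D := by rw [hD]; linarith only [hn, ha, hg, hq, hp, hd]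
  have hD0 : 0 < D := by linarith only [hD1]
  refine ⟨c1, c2, c3, c4, D, h21, h32, hD1, fun u => ?_⟩
  induction u using Nat.strong_induction_on with
  | _ u ih =>
    rcases Nat.lt_or_ge u u1 with h | h
    · have hE : (1 : ℝ) ≤ 2 ^ u := one_le_pow₀ (by norm_num)
      have hs : (1 : ℝ) ≤ (u : ℝ) + 1 := by
        have : (0 : ℝ) ≤ (u : ℝ) := Nat.cast_nonneg _
        linarith only [this]
      have gen : ∀ (k : ℝ) (b : ℕ), 1 ≤ k → D ≤ k * D * ((u : ℝ) + 1) ^ b * 2 ^ u := by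
        intro k b hk
        have h1 : 1 ≤ ((u : ℝ) + 1) ^ b := one_le_pow₀ hs
        calc D = 1 * D * 1 * 1 := by ring
          _ ≤ k * D * ((u : ℝ) + 1) ^ b * 2 ^ u := by
            apply mul_le_mul _ hE (by norm_num) (by positivity)
            apply mul_le_mul _ h1 (by norm_num) (by positivity)
            exact mul_le_mul_of_nonneg_right hk hD0.le
      have g1 := gen c1 0 h11
      have g2 := gen c2 2 h21
      have g3 := gen c3 3 (by linarith only [h21, h32])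
      have g4 := gen c4 1 (by rw [hc4]; linarith only [hc])
      have g0' := gen 1 0 le_rfl
      rw [pow_zero, mul_one] at g1 g0'
      rw [one_mul] at g0'
      rw [pow_one] at g4
      refine hmono hP ?_ ?_ ?_ ?_ ?_ ?_ ?_
      · linarith only [g3, hD, hn, ha, hg, hq, hp, hd]
      · linarith only [g2, hD, hn, ha, hg, hq, hp, hd]
      · linarith only [g3, hD, hn, ha, hg, hq, hp, hd]
      · linarith only [g1, hD, hn, ha, hg, hq, hp, hd]
      · linarith only [g4, hD, hn, ha, hg, hq, hp, hd]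
      · linarith only [g0', hD, hn, ha, hg, hq, hp, hd]
      · refine le_trans ?_ hx
        have h1 : (2 : ℝ) ^ u ≤ 2 ^ u1 := pow_le_pow_right₀ (by norm_num) h.le
        have h2 : 1 / ((u : ℝ) + 1) ≤ 1 := by
          rw [div_le_one (by linarith only [hs])]
          exact hs
        have h3 : (1 + 1 / ((u : ℝ) + 1)) * 2 ^ u ≤ 2 * 2 ^ u :=
          mul_le_mul_of_nonneg_right (by linarith only [h2]) (by positivity)
        rw [pow_succ]
        linarith only [h1, h3]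
    · obtain ⟨r, lam, hL⟩ := hu1 u h
      exact step hb hbc hCR hc2 hc3 hc1 hc4 hD1 hch hmono hL ih

/-- **the recursion** -/
theorem recStmt : RecStmt := by
  intro P b c hb hbc hch hmono hbase
  obtain ⟨c1, c2, c3, c4, D, h21, h32, hD1, hall⟩ := all_levels hb hbc hch hmono hbase
  have hc3 : 1 ≤ c3 := le_trans h21 h32
  have hc30 : 0 < c3 := by linarith only [hc3]
  have hc20 : 0 < c2 := by linarith only [h21]
  have hD0 : 0 < D := by linarith only [hD1]
  obtain ⟨T, hT⟩ : ∃ T : ℕ → ℝ, ∀ u : ℕ, T u = 4 * c3 * D * ((u : ℝ) + 1) ^ 3 * 2 ^ u :=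
    ⟨fun u : ℕ => 4 * c3 * D * ((u : ℝ) + 1) ^ 3 * 2 ^ u, fun _ => rfl⟩
  have hcD : 1 ≤ c3 * D := by
    calc (1 : ℝ) = 1 * 1 := (mul_one _).symm
      _ ≤ c3 * D := mul_le_mul hc3 hD1 (by norm_num) hc30.le
  have hTbig : ∀ u : ℕ, (2 : ℝ) ^ u ≤ T u := by
    intro u
    rw [hT]
    have hs : (1 : ℝ) ≤ ((u : ℝ) + 1) ^ 3 := by
      apply one_le_pow₀
      have : (0 : ℝ) ≤ (u : ℝ) := Nat.cast_nonneg _
      linarith only [this]
    apply le_mul_of_one_le_left (by positivity)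
    calc (1 : ℝ) = 1 * 1 := (mul_one _).symm
      _ ≤ 4 * c3 * D * ((u : ℝ) + 1) ^ 3 :=
        mul_le_mul (by linarith only [hcD]) hs (by norm_num) (by positivity)
  refine ⟨1728 * c3 * D, by positivity, max (T 0) (Real.exp 1), fun t ht => ?_⟩
  have ht0 : T 0 ≤ t := le_trans (le_max_left _ _) ht
  have ht1 : Real.exp 1 ≤ t := le_trans (le_max_right _ _) ht
  have htpos : 0 < t := lt_of_lt_of_le (Real.exp_pos 1) ht1
  have hlog1 : 1 ≤ Real.log t := by
    rw [Real.le_log_iff_exp_le htpos]; exact ht1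
  classical
  have hex : ∃ u, ¬ T (u + 1) ≤ t := by
    obtain ⟨M, hM⟩ := exists_nat_ge t
    refine ⟨M, ?_⟩
    have h1 := hTbig (M + 1)
    have h2 : ((M + 1 : ℕ) : ℝ) ≤ 2 ^ (M + 1) := by
      have : M + 1 ≤ 2 ^ (M + 1) := Nat.lt_two_pow_self.le
      exact_mod_cast this
    push_cast at h2
    intro h
    linarith only [h1, h2, h, hM]
  obtain ⟨u, hu2, hu1⟩ : ∃ u, T u ≤ t ∧ t < T (u + 1) := by
    refine ⟨Nat.find hex, ?_, not_le.1 (Nat.find_spec hex)⟩
    rcases Nat.eq_zero_or_pos (Nat.find hex) with h | h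
    · rw [h]; exact ht0
    · have h1 := Nat.find_min hex (m := Nat.find hex - 1) (by omega)
      rw [not_not, Nat.sub_add_cancel h] at h1
      exact h1
  obtain ⟨s, hs⟩ : ∃ s : ℝ, s = (u : ℝ) + 1 := ⟨_, rfl⟩
  obtain ⟨E, hE⟩ : ∃ E : ℝ, E = 2 ^ u := ⟨_, rfl⟩
  have hu0 : (0 : ℝ) ≤ (u : ℝ) := Nat.cast_nonneg _
  have hs1 : 1 ≤ s := by linarith only [hu0, hs]
  have hs0 : 0 < s := by linarith only [hs1]
  have hE1 : 1 ≤ E := by rw [hE]; exact one_le_pow₀ (by norm_num)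
  have hE0 : 0 < E := by linarith only [hE1]
  have hconf := hall u
  unfold St at hconf
  rw [← hs, ← hE] at hconf
  have hx0 : 0 < (1 + 1 / s) * E := by positivity
  have hTu : T u = 4 * c3 * D * s ^ 3 * E := by rw [hT, hs, hE]
  have hTu1 : T (u + 1) = 8 * c3 * D * (s + 1) ^ 3 * E := by
    rw [hT, hE, pow_succ (2 : ℝ)]
    push_cast
    rw [← hs]; ring
  refine ⟨_, _, _, _, _, _, _, hconf, by positivity, by positivity, by positivity, hx0, ?_, ?_⟩
  · refine le_trans ?_ hu2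
    rw [hTu]
    have h1 : c2 * D * s ^ 2 * E ≤ c3 * D * s ^ 3 * E := by
      apply mul_le_mul_of_nonneg_right _ hE0.le
      apply mul_le_mul _ (pow_le_pow_right₀ hs1 (by norm_num)) (by positivity) (by positivity)
      exact mul_le_mul_of_nonneg_right h32 hD0.le
    have h2 : 1 ≤ c3 * D * s ^ 3 * E := by
      calc (1 : ℝ) = 1 * 1 * 1 := by norm_num
        _ ≤ c3 * D * s ^ 3 * E := by
          apply mul_le_mul _ hE1 (by norm_num) (by positivity)
          exact mul_le_mul hcD (one_le_pow₀ hs1) (by norm_num) (by positivity)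
    linarith only [h1, h2]
  · have h1 : (s + 1) ^ 3 ≤ (2 * s) ^ 3 :=
      pow_le_pow_left₀ (by linarith only [hs0]) (by linarith only [hs1]) 3
    have h2 : t ≤ 64 * c3 * D * s ^ 3 * E := by
      refine le_trans hu1.le ?_
      rw [hTu1]
      calc 8 * c3 * D * (s + 1) ^ 3 * E ≤ 8 * c3 * D * (2 * s) ^ 3 * E := by
            apply mul_le_mul_of_nonneg_right _ hE0.le
            exact mul_le_mul_of_nonneg_left h1 (by positivity)
        _ = _ := by ring
    have h3 : (u : ℝ) ≤ 2 * Real.log t := by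
      have a1 : (2 : ℝ) ^ u ≤ t := le_trans (hTbig u) hu2
      have a2 := Real.log_le_log (by positivity) a1
      rw [Real.log_pow] at a2
      have a3 := Real.log_two_gt_d9
      have a4 : (u : ℝ) * (1 / 2) ≤ u * Real.log 2 :=
        mul_le_mul_of_nonneg_left (by linarith only [a3]) hu0
      linarith only [a2, a4]
    have h4 : s ≤ 3 * Real.log t := by linarith only [h3, hs, hlog1]
    have h5 : s ^ 3 ≤ (3 * Real.log t) ^ 3 := pow_le_pow_left₀ hs0.le h4 3
    have h6 : E ≤ (1 + 1 / s) * E := by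
      apply le_mul_of_one_le_left hE0.le
      have : 0 < 1 / s := by positivity
      linarith only [this]
    calc t ≤ 64 * c3 * D * s ^ 3 * E := h2
      _ ≤ 64 * c3 * D * (3 * Real.log t) ^ 3 * ((1 + 1 / s) * E) := by
          apply mul_le_mul _ h6 hE0.le (by positivity)
          exact mul_le_mul_of_nonneg_left h5 (by positivity)
      _ = _ := by ring

end Vale.Agent.P065.R2.H201
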